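import Vale.Agent.P371.Main

open Vale.Agent.P371

theorem Vale.Agent.Results.P371.A_full.result (γ : ℝ) (h1 : 1 / 2 < γ) (h2 : γ < 3 / 2)
    (m : ℕ) (hm : 1 ≤ m) :
    ltConst γ m = ENNReal.ofReal (2 * ((γ - 1 / 2) / (γ + 1 / 2)) ^ (γ - 1 / 2) *
      (Real.Gamma (γ + 1) / (2 * √Real.pi * Real.Gamma (γ + 3 / 2)))) :=
  main γ h1 h2 m hm
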